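import Vale.Agent.P062.Defs
import Vale.Agent.P062.Strategy
import Vale.Agent.P062.CertA

open Vale.Agent.P062

/-- Maker has a strategy on the empty board `ℤ × ℤ` whose moves are always legal and which owns an
allowed copy of Snaky after at most 28 own moves against every legal play of Breaker. -/
theorem Vale.Agent.Results.P062.MakerWins.result :
    ∃ σ : List (ℤ × ℤ) → ℤ × ℤ, ∀ β : ℕ → ℤ × ℤ,
      (∀ n, ∀ i < n, makerMove σ β n ≠ makerMove σ β i ∧ makerMove σ β n ≠ β i) ∧
      (BreakerLegal σ β 27 →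
        ∃ T : Set (ℤ × ℤ), IsCopy T ∧ ∀ c ∈ T, ∃ i < 28, makerMove σ β i = c) :=
  ⟨strat 27, fun β => ⟨strat_legal 27 β, strat_wins winA β⟩⟩
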